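import Mathlib

/-!
# P263, part AD5: the algebra of Adams' theorem

* `AD.dvd_three_pow` : `2 ^ m ∣ 3 ^ m - 1` only for `m = 0, 1, 2, 4`;
* `AD.algebra` : the conclusion from the two functionals on `K[[x]]/x^m`, `K = ZMod (2 ^ m)`.
-/

open Finset PowerSeries

namespace Vale.Agent.P263.AD

/-! ### `2 ^ m ∣ 3 ^ m - 1` -/

theorem three_pow_odd_mod (k : ℕ) : 3 ^ (2 * k + 1) % 8 = 3 := by
  induction k with
  | zero => rfl
  | succ k ih =>
    have : 3 ^ (2 * (k + 1) + 1) = 9 * 3 ^ (2 * k + 1) := by ring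
    omega

theorem le_two_of_two_pow_le {v : ℕ} (h : 2 ^ v ≤ v + 2) : v ≤ 2 := by
  by_contra hv
  have : ∀ k, k + 3 + 2 < 2 ^ (k + 3) := by
    intro k
    induction k with
    | zero => norm_num
    | succ k ih =>
      have : 2 ^ (k + 1 + 3) = 2 * 2 ^ (k + 3) := by ring
      omega
  obtain ⟨k, rfl⟩ : ∃ k, v = k + 3 := ⟨v - 3, by omega⟩
  exact absurd h (not_le.2 (this k))

theorem dvd_three_pow {m : ℕ} (h : 2 ^ m ∣ 3 ^ m - 1) : m = 0 ∨ m = 1 ∨ m = 2 ∨ m = 4 := by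
  rcases Nat.even_or_odd m with hm | ⟨k, hk⟩
  · rcases Nat.eq_zero_or_pos m with rfl | hpos
    · left; rfl
    have h1 := padicValNat.pow_two_sub_one (x := 3) (n := m) (by norm_num) (by norm_num)
      hpos.ne' hm
    have h4 : padicValNat 2 (3 + 1) = 2 := by
      have : (3 + 1 : ℕ) = 2 ^ 2 := by norm_num
      rw [this, padicValNat.prime_pow]
    have h2 : padicValNat 2 (3 - 1) = 1 := by
      have : (3 - 1 : ℕ) = 2 ^ 1 := by norm_num
      rw [this, padicValNat.prime_pow]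
    rw [h4, h2] at h1
    have hne : 3 ^ m - 1 ≠ 0 := by
      have : 3 ^ 1 ≤ 3 ^ m := Nat.pow_le_pow_right (by norm_num) hpos
      omega
    have h5 : m ≤ padicValNat 2 (3 ^ m - 1) := (padicValNat_dvd_iff_le hne).1 h
    have h6 : 2 ^ padicValNat 2 m ≤ m := Nat.le_of_dvd hpos pow_padicValNat_dvd
    have h7 := le_two_of_two_pow_le (v := padicValNat 2 m) (by omega)
    have h8 : m ≤ 4 := by omega
    obtain ⟨k, rfl⟩ := hm
    omega
  · subst hk
    right; left
    by_contra hne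
    have h8 : 2 ^ 3 ∣ 2 ^ (2 * k + 1) := pow_dvd_pow 2 (by omega)
    have h9 : 8 ∣ 3 ^ (2 * k + 1) - 1 := (by simpa using h8 : 8 ∣ 2 ^ (2 * k + 1)).trans h
    have h10 := three_pow_odd_mod k
    clear h h8
    generalize 3 ^ (2 * k + 1) = a at h9 h10
    omega

/-! ### The functionals -/

variable {K : Type*} [CommRing K]

/-- `f ↦ ∑_{i < m} f_i l_i` -/
noncomputable def pair (m : ℕ) (l : ℕ → K) (f : PowerSeries K) : K :=
  ∑ i ∈ range m, PowerSeries.coeff i f * l i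

theorem pair_add (m : ℕ) (l : ℕ → K) (f g : PowerSeries K) :
    pair m l (f + g) = pair m l f + pair m l g := by
  unfold pair
  rw [← sum_add_distrib]
  exact sum_congr rfl fun i _ => by rw [map_add, add_mul]

theorem pair_C_mul (m : ℕ) (l : ℕ → K) (a : K) (f : PowerSeries K) :
    pair m l (C a * f) = a * pair m l f := by
  unfold pair
  rw [mul_sum]
  exact sum_congr rfl fun i _ => by rw [coeff_C_mul, mul_assoc]

theorem pair_sum (m : ℕ) (l : ℕ → K) {ι : Type*} (t : Finset ι) (f : ι → PowerSeries K) :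
    pair m l (∑ j ∈ t, f j) = ∑ j ∈ t, pair m l (f j) := by
  unfold pair
  rw [sum_comm]
  exact sum_congr rfl fun i _ => by rw [map_sum, sum_mul]

theorem pair_X_pow_mul (m : ℕ) (l : ℕ → K) (f : PowerSeries K) :
    pair m l (X ^ m * f) = 0 := by
  unfold pair
  refine sum_eq_zero fun i hi => ?_
  rw [coeff_X_pow_mul', if_neg (by rw [mem_range] at hi; omega), zero_mul]

/-- `A = ∑_{j < m} 2^{m-1-j} t^j` -/
noncomputable def A (m : ℕ) (t : PowerSeries K) : PowerSeries K :=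
  ∑ j ∈ range m, 2 ^ (m - 1 - j) * t ^ j

theorem A_succ (m : ℕ) (t : PowerSeries K) : A (m + 1) t = 2 * A m t + t ^ m := by
  unfold A
  rw [sum_range_succ, mul_sum]
  congr 1
  · refine sum_congr rfl fun j hj => ?_
    rw [mem_range] at hj
    rw [← mul_assoc, ← pow_succ', show m - 1 - j + 1 = m + 1 - 1 - j by omega]
  · rw [show m + 1 - 1 - m = 0 by omega, pow_zero, one_mul]

theorem A_mul (m : ℕ) (t : PowerSeries K) : A m t * (2 - t) = 2 ^ m - t ^ m := by
  induction m with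
  | zero => simp [A]
  | succ m ih =>
    rw [A_succ, add_mul, mul_assoc, ih]
    ring

theorem A_identity (m : ℕ) :
    A m (1 - (1 - X) ^ 3 : PowerSeries K) * (1 - X + X ^ 2) =
      A m X - X ^ m * ((1 - X) * ∑ j ∈ range m, (3 - 3 * X + X ^ 2) ^ j) := by
  induction m with
  | zero => simp [A]
  | succ m ih =>
    have hG : (1 - (3 - 3 * X + X ^ 2) : PowerSeries K) *
        ∑ j ∈ range m, (3 - 3 * X + X ^ 2) ^ j = 1 - (3 - 3 * X + X ^ 2) ^ m := by
      have := geom_sum_mul_neg (3 - 3 * X + X ^ 2 : PowerSeries K) m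
      rw [mul_comm]
      exact this
    have ht : (1 - (1 - X) ^ 3 : PowerSeries K) ^ m = X ^ m * (3 - 3 * X + X ^ 2) ^ m := by
      rw [← mul_pow]
      congr 1
      ring
    rw [A_succ, A_succ, add_mul, mul_assoc, ih, ht, sum_range_succ]
    linear_combination (X ^ m : PowerSeries K) * hG

theorem main_identity (m : ℕ) (hK : (2 : K) ^ m = 0) : ∃ r : PowerSeries K,
    A m (1 - (1 - X) ^ 3) * (1 + (1 - X) ^ 2 + (1 - X) ^ 4) = A m X + X ^ m * r := by
  have h2 : (2 : PowerSeries K) ^ m = 0 := by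
    have h : (2 : PowerSeries K) = C (2 : K) := by rw [map_ofNat]
    rw [h, ← map_pow, hK, map_zero]
  refine ⟨-(1 - X) - ((1 - X) * ∑ j ∈ range m, (3 - 3 * X + X ^ 2) ^ j) *
    (1 + (1 - X) + (1 - X) ^ 2), ?_⟩
  have h1 := A_identity (K := K) m
  have h3 := A_mul m (X : PowerSeries K)
  linear_combination (1 + (1 - X) + (1 - X) ^ 2 : PowerSeries K) * h1 + (1 - X) * h3 +
    (1 - X) * h2

theorem pair_A (m : ℕ) (l : ℕ → K) :
    pair m l (A m X) = ∑ j ∈ range m, 2 ^ (m - 1 - j) * l j := by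
  unfold pair
  refine sum_congr rfl fun i hi => ?_
  congr 1
  unfold A
  rw [map_sum, sum_eq_single i]
  · have h : (2 : PowerSeries K) ^ (m - 1 - i) = C ((2 : K) ^ (m - 1 - i)) := by
      rw [map_pow, map_ofNat]
    rw [h, coeff_C_mul, coeff_X_pow_self, mul_one]
  · intro j _ hj
    have h : (2 : PowerSeries K) ^ (m - 1 - j) = C ((2 : K) ^ (m - 1 - j)) := by
      rw [map_pow, map_ofNat]
    rw [h, coeff_C_mul, coeff_X_pow, if_neg (Ne.symm hj), mul_zero]
  · intro h; exact absurd hi h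

/-- The relation between the two functionals. -/
theorem algebra_ring {m : ℕ} (hK : (2 : K) ^ m = 0) (lam mu : ℕ → K)
    {xR U : PowerSeries K} (hx : 3 * xR = 1 - (1 - X) ^ 3)
    (hU : 3 * U = 1 + (1 - X) ^ 2 + (1 - X) ^ 4)
    (H : ∀ j < m, pair m lam (xR ^ j * U) - 3 ^ (m - 1 - j) * lam j =
      pair m mu (xR ^ j * U * (X * (2 - X)))) :
    (3 ^ m - 1) * ∑ j ∈ range m, 2 ^ (m - 1 - j) * lam j = 0 := by
  obtain ⟨r, hr⟩ := main_identity (K := K) m hK
  have hA : ∑ j ∈ range m, (C ((2 : K) ^ (m - 1 - j) * 3 ^ j * 3)) * (xR ^ j * U) =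
      A m X + X ^ m * r := by
    rw [← hr]
    unfold A
    rw [sum_mul]
    refine sum_congr rfl fun j _ => ?_
    rw [← hx, ← hU, map_mul, map_mul, map_pow, map_pow, map_ofNat, map_ofNat]
    ring
  have h1 : ∑ j ∈ range m, ((2 : K) ^ (m - 1 - j) * 3 ^ j * 3) * pair m lam (xR ^ j * U) =
      ∑ j ∈ range m, 2 ^ (m - 1 - j) * lam j := by
    rw [← pair_A, ← add_zero (pair m lam (A m X)), ← pair_X_pow_mul m lam r, ← pair_add, ← hA,
      pair_sum]
    exact sum_congr rfl fun j _ => (pair_C_mul _ _ _ _).symm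
  have h2 : ∑ j ∈ range m, ((2 : K) ^ (m - 1 - j) * 3 ^ j * 3) *
      pair m mu (xR ^ j * U * (X * (2 - X))) = 0 := by
    have h3 : ∑ j ∈ range m, (C ((2 : K) ^ (m - 1 - j) * 3 ^ j * 3)) *
        (xR ^ j * U * (X * (2 - X))) = X ^ m * (r * (X * (2 - X)) - X) := by
      have h4 : ∑ j ∈ range m, (C ((2 : K) ^ (m - 1 - j) * 3 ^ j * 3)) *
        (xR ^ j * U * (X * (2 - X))) = (A m X + X ^ m * r) * (X * (2 - X)) := by
        rw [← hA, sum_mul]
        exact sum_congr rfl fun j _ => (mul_assoc _ _ _).symm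
      have h5 := A_mul m (X : PowerSeries K)
      have h6 : (2 : PowerSeries K) ^ m = 0 := by
        have h : (2 : PowerSeries K) = C (2 : K) := by rw [map_ofNat]
        rw [h, ← map_pow, hK, map_zero]
      rw [h4]
      linear_combination (X : PowerSeries K) * h5 + X * h6
    rw [← pair_X_pow_mul m mu (r * (X * (2 - X)) - X), ← h3, pair_sum]
    exact sum_congr rfl fun j _ => (pair_C_mul _ _ _ _).symm
  have h3 : ∑ j ∈ range m, ((2 : K) ^ (m - 1 - j) * 3 ^ j * 3) * (3 ^ (m - 1 - j) * lam j) =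
      3 ^ m * ∑ j ∈ range m, 2 ^ (m - 1 - j) * lam j := by
    rw [mul_sum]
    refine sum_congr rfl fun j hj => ?_
    rw [mem_range] at hj
    have h4 : (3 : K) ^ m = 3 ^ j * 3 * 3 ^ (m - 1 - j) := by
      rw [← pow_succ, ← pow_add]
      congr 1
      omega
    rw [h4]
    ring
  have h4 : ∑ j ∈ range m, ((2 : K) ^ (m - 1 - j) * 3 ^ j * 3) *
      (pair m lam (xR ^ j * U) - 3 ^ (m - 1 - j) * lam j) = 0 := by
    rw [← h2]
    exact sum_congr rfl fun j hj => by rw [H j (mem_range.1 hj)]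
  simp only [mul_sub, sum_sub_distrib] at h4
  rw [h1, h3] at h4
  linear_combination -h4

theorem sum_two_pow (k : ℕ) (lam : ℕ → K) :
    ∑ j ∈ range (k + 1), (2 : K) ^ (k + 1 - 1 - j) * lam j =
      lam k + 2 * ∑ j ∈ range k, 2 ^ (k - 1 - j) * lam j := by
  rw [sum_range_succ, add_comm, mul_sum]
  congr 1
  · rw [show k + 1 - 1 - k = 0 by omega, pow_zero, one_mul]
  · refine sum_congr rfl fun j hj => ?_
    rw [mem_range] at hj
    rw [← mul_assoc, ← pow_succ', show k - 1 - j + 1 = k + 1 - 1 - j by omega]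

/-- **The algebra of Adams' theorem.** -/
theorem algebra {m : ℕ} (hm : m ≠ 0) (lam mu : ℕ → ZMod (2 ^ m))
    {xR U : PowerSeries (ZMod (2 ^ m))} (hx : 3 * xR = 1 - (1 - X) ^ 3)
    (hU : 3 * U = 1 + (1 - X) ^ 2 + (1 - X) ^ 4)
    (H : ∀ j < m, pair m lam (xR ^ j * U) - 3 ^ (m - 1 - j) * lam j =
      pair m mu (xR ^ j * U * (X * (2 - X))))
    (hlam : IsUnit (lam (m - 1))) : m = 1 ∨ m = 2 ∨ m = 4 := by
  have hK : (2 : ZMod (2 ^ m)) ^ m = 0 := by
    have := ZMod.natCast_self (2 ^ m)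
    push_cast at this
    exact this
  have h := algebra_ring hK lam mu hx hU H
  obtain ⟨k, rfl⟩ : ∃ k, m = k + 1 := ⟨m - 1, by omega⟩
  have hu : IsUnit (lam k + 2 * ∑ j ∈ range k, 2 ^ (k - 1 - j) * lam j) := by
    have hn : IsNilpotent (2 * ∑ j ∈ range k, 2 ^ (k - 1 - j) * lam j) := by
      refine ⟨k + 1, ?_⟩
      rw [mul_pow, hK, zero_mul]
    exact IsNilpotent.isUnit_add_left_of_commute hn hlam (Commute.all _ _)
  rw [sum_two_pow] at h
  have h3 : (3 : ZMod (2 ^ (k + 1))) ^ (k + 1) - 1 = 0 := by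
    have := hu.mul_left_eq_zero.1 h
    exact this
  have h4 : 2 ^ (k + 1) ∣ 3 ^ (k + 1) - 1 := by
    rw [← ZMod.natCast_eq_zero_iff, Nat.cast_sub (Nat.one_le_pow _ _ (by norm_num))]
    push_cast
    exact h3
  rcases dvd_three_pow h4 with h | h | h | h
  · exact absurd h hm
  · exact Or.inl h
  · exact Or.inr (Or.inl h)
  · exact Or.inr (Or.inr h)

/-! ### The version for the law `x + y + x y` -/

theorem A_identity' (m : ℕ) :
    A m (1 - (1 + X) ^ 3 : PowerSeries K) * (1 + X + X ^ 2) =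
      A m (-X) - (-X) ^ m * ((1 + X) * ∑ j ∈ range m, (3 + 3 * X + X ^ 2) ^ j) := by
  induction m with
  | zero => simp [A]
  | succ m ih =>
    have hG : (1 - (3 + 3 * X + X ^ 2) : PowerSeries K) *
        ∑ j ∈ range m, (3 + 3 * X + X ^ 2) ^ j = 1 - (3 + 3 * X + X ^ 2) ^ m := by
      have := geom_sum_mul_neg (3 + 3 * X + X ^ 2 : PowerSeries K) m
      rw [mul_comm]
      exact this
    have ht : (1 - (1 + X) ^ 3 : PowerSeries K) ^ m = (-X) ^ m * (3 + 3 * X + X ^ 2) ^ m := by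
      rw [← mul_pow]
      congr 1
      ring
    rw [A_succ, A_succ, add_mul, mul_assoc, ih, ht, sum_range_succ]
    linear_combination ((-X) ^ m : PowerSeries K) * hG

theorem main_identity' (m : ℕ) (hK : (2 : K) ^ m = 0) : ∃ r : PowerSeries K,
    A m (1 - (1 + X) ^ 3) * (1 + (1 + X) ^ 2 + (1 + X) ^ 4) = A m (-X) + X ^ m * r := by
  have h2 : (2 : PowerSeries K) ^ m = 0 := by
    have h : (2 : PowerSeries K) = C (2 : K) := by rw [map_ofNat]
    rw [h, ← map_pow, hK, map_zero]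
  refine ⟨(-1) ^ m * (-(1 + X) - ((1 + X) * ∑ j ∈ range m, (3 + 3 * X + X ^ 2) ^ j) *
    (1 + (1 + X) + (1 + X) ^ 2)), ?_⟩
  have h1 := A_identity' (K := K) m
  have h3 := A_mul m (-X : PowerSeries K)
  have h4 : (-X : PowerSeries K) ^ m = X ^ m * (-1) ^ m := by
    rw [← mul_pow]
    congr 1
    ring
  rw [h4] at h1 h3
  linear_combination (1 + (1 + X) + (1 + X) ^ 2 : PowerSeries K) * h1 + (1 + X) * h3 +
    (1 + X) * h2

theorem pair_A' (m : ℕ) (l : ℕ → K) :
    pair m l (A m (-X)) = ∑ j ∈ range m, 2 ^ (m - 1 - j) * ((-1) ^ j * l j) := by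
  unfold pair
  refine sum_congr rfl fun i hi => ?_
  rw [← mul_assoc]
  congr 1
  have h0 : ∀ j, (2 : PowerSeries K) ^ (m - 1 - j) * (-X) ^ j =
      C ((2 : K) ^ (m - 1 - j) * (-1) ^ j) * X ^ j := by
    intro j
    rw [map_mul, map_pow, map_ofNat, map_pow, map_neg, map_one, mul_assoc, ← mul_pow]
    congr 2
    ring
  unfold A
  rw [map_sum, sum_eq_single i]
  · rw [h0, coeff_C_mul, coeff_X_pow_self, mul_one]
  · intro j _ hj
    rw [h0, coeff_C_mul, coeff_X_pow, if_neg (Ne.symm hj), mul_zero]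
  · intro h; exact absurd hi h

/-- The relation between the two functionals, for the law `x + y + x y`. -/
theorem algebra_ring' {m : ℕ} (hK : (2 : K) ^ m = 0) (lam mu : ℕ → K)
    {xR U : PowerSeries K} (hx : 3 * xR = (1 + X) ^ 3 - 1)
    (hU : 3 * U = 1 + (1 + X) ^ 2 + (1 + X) ^ 4)
    (H : ∀ j < m, pair m lam (xR ^ j * U) - 3 ^ (m - 1 - j) * lam j =
      pair m mu (xR ^ j * U * (X * (2 + X)))) :
    (3 ^ m - 1) * ∑ j ∈ range m, 2 ^ (m - 1 - j) * ((-1) ^ j * lam j) = 0 := by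
  obtain ⟨r, hr⟩ := main_identity' (K := K) m hK
  have h6 : (2 : PowerSeries K) ^ m = 0 := by
    have h : (2 : PowerSeries K) = C (2 : K) := by rw [map_ofNat]
    rw [h, ← map_pow, hK, map_zero]
  have hA : ∑ j ∈ range m, (C ((2 : K) ^ (m - 1 - j) * (-1) ^ j * 3 ^ j * 3)) * (xR ^ j * U) =
      A m (-X) + X ^ m * r := by
    rw [← hr]
    unfold A
    rw [sum_mul]
    refine sum_congr rfl fun j _ => ?_
    have h7 : (1 - (1 + X) ^ 3 : PowerSeries K) = (-1) * (3 * xR) := by rw [hx]; ring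
    rw [h7, ← hU, map_mul, map_mul, map_mul, map_pow, map_pow, map_pow, map_ofNat, map_ofNat,
      map_neg, map_one, mul_pow, mul_pow]
    ring
  have h1 : ∑ j ∈ range m, ((2 : K) ^ (m - 1 - j) * (-1) ^ j * 3 ^ j * 3) *
      pair m lam (xR ^ j * U) = ∑ j ∈ range m, 2 ^ (m - 1 - j) * ((-1) ^ j * lam j) := by
    rw [← pair_A', ← add_zero (pair m lam (A m (-X))), ← pair_X_pow_mul m lam r, ← pair_add,
      ← hA, pair_sum]
    exact sum_congr rfl fun j _ => (pair_C_mul _ _ _ _).symm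
  have h2 : ∑ j ∈ range m, ((2 : K) ^ (m - 1 - j) * (-1) ^ j * 3 ^ j * 3) *
      pair m mu (xR ^ j * U * (X * (2 + X))) = 0 := by
    have h3 : ∑ j ∈ range m, (C ((2 : K) ^ (m - 1 - j) * (-1) ^ j * 3 ^ j * 3)) *
        (xR ^ j * U * (X * (2 + X))) = X ^ m * (r * (X * (2 + X)) - (-1) ^ m * X) := by
      have h4 : ∑ j ∈ range m, (C ((2 : K) ^ (m - 1 - j) * (-1) ^ j * 3 ^ j * 3)) *
        (xR ^ j * U * (X * (2 + X))) = (A m (-X) + X ^ m * r) * (X * (2 + X)) := by
        rw [← hA, sum_mul]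
        exact sum_congr rfl fun j _ => (mul_assoc _ _ _).symm
      have h5 := A_mul m (-X : PowerSeries K)
      have h7 : (-X : PowerSeries K) ^ m = X ^ m * (-1) ^ m := by
        rw [← mul_pow]
        congr 1
        ring
      rw [h7] at h5
      rw [h4]
      linear_combination (X : PowerSeries K) * h5 + X * h6
    rw [← pair_X_pow_mul m mu (r * (X * (2 + X)) - (-1) ^ m * X), ← h3, pair_sum]
    exact sum_congr rfl fun j _ => (pair_C_mul _ _ _ _).symm
  have h3 : ∑ j ∈ range m, ((2 : K) ^ (m - 1 - j) * (-1) ^ j * 3 ^ j * 3) *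
      (3 ^ (m - 1 - j) * lam j) =
      3 ^ m * ∑ j ∈ range m, 2 ^ (m - 1 - j) * ((-1) ^ j * lam j) := by
    rw [mul_sum]
    refine sum_congr rfl fun j hj => ?_
    rw [mem_range] at hj
    have h4 : (3 : K) ^ m = 3 ^ j * 3 * 3 ^ (m - 1 - j) := by
      rw [← pow_succ, ← pow_add]
      congr 1
      omega
    rw [h4]
    ring
  have h4 : ∑ j ∈ range m, ((2 : K) ^ (m - 1 - j) * (-1) ^ j * 3 ^ j * 3) *
      (pair m lam (xR ^ j * U) - 3 ^ (m - 1 - j) * lam j) = 0 := by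
    rw [← h2]
    exact sum_congr rfl fun j hj => by rw [H j (mem_range.1 hj)]
  simp only [mul_sub, sum_sub_distrib] at h4
  rw [h1, h3] at h4
  linear_combination -h4

/-- **The algebra of Adams' theorem**, for the law `x + y + x y`. -/
theorem algebra' {m : ℕ} (hm : m ≠ 0) (lam mu : ℕ → ZMod (2 ^ m))
    {xR U : PowerSeries (ZMod (2 ^ m))} (hx : 3 * xR = (1 + X) ^ 3 - 1)
    (hU : 3 * U = 1 + (1 + X) ^ 2 + (1 + X) ^ 4)
    (H : ∀ j < m, pair m lam (xR ^ j * U) - 3 ^ (m - 1 - j) * lam j =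
      pair m mu (xR ^ j * U * (X * (2 + X))))
    (hlam : IsUnit (lam (m - 1))) : m = 1 ∨ m = 2 ∨ m = 4 := by
  have hK : (2 : ZMod (2 ^ m)) ^ m = 0 := by
    have := ZMod.natCast_self (2 ^ m)
    push_cast at this
    exact this
  have h := algebra_ring' hK lam mu hx hU H
  obtain ⟨k, rfl⟩ : ∃ k, m = k + 1 := ⟨m - 1, by omega⟩
  have hlam' : IsUnit ((-1) ^ k * lam k) := ((isUnit_one.neg).pow k).mul hlam
  have hu : IsUnit ((-1) ^ k * lam k + 2 * ∑ j ∈ range k, 2 ^ (k - 1 - j) * ((-1) ^ j * lam j)) := by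
    have hn : IsNilpotent (2 * ∑ j ∈ range k, 2 ^ (k - 1 - j) * ((-1) ^ j * lam j)) := by
      refine ⟨k + 1, ?_⟩
      rw [mul_pow, hK, zero_mul]
    exact IsNilpotent.isUnit_add_left_of_commute hn hlam' (Commute.all _ _)
  rw [sum_two_pow k (fun j => (-1) ^ j * lam j)] at h
  have h3 : (3 : ZMod (2 ^ (k + 1))) ^ (k + 1) - 1 = 0 := by
    have := hu.mul_left_eq_zero.1 h
    exact this
  have h4 : 2 ^ (k + 1) ∣ 3 ^ (k + 1) - 1 := by
    rw [← ZMod.natCast_eq_zero_iff, Nat.cast_sub (Nat.one_le_pow _ _ (by norm_num))]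
    push_cast
    exact h3
  rcases dvd_three_pow h4 with h | h | h | h
  · exact absurd h hm
  · exact Or.inl h
  · exact Or.inr (Or.inl h)
  · exact Or.inr (Or.inr h)

end Vale.Agent.P263.AD
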