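import Vale.Agent.P263.T0.SphI
import Vale.Agent.P246.T.PR2
import Vale.Agent.P246.T.SD

/-!
# P263, block AD, Freudenthal's theorem: the chain level

* `Hg c c'` : the chains `c` and `c'` differ by a boundary.
* `RZ X n` : the reduced integral homology of `X` vanishes in degree `n`.
* `mv_surj`, `mv_inj` : the two halves of the Mayer-Vietoris sequence of an open cover of an acyclic
  space.
* `onto_of`, `inj_of` : the homology of the fibre of a fibration with an acyclic total space over a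
  union of two contractible open sets, in terms of the homology of the intersection.
* `hzero_of_rel` : from absolute statements to the relative homology of an embedding.
-/

open Topology Set Vale.Agent.P246.T Vale.Agent.P246.T.FM

namespace Vale.Agent.P263.AD.Freu

variable {X Y Z : Type} [TopologicalSpace X] [TopologicalSpace Y] [TopologicalSpace Z] {n : ℕ}

/-! ### homologous chains -/

/-- the chains `c` and `c'` differ by a boundary -/
def Hg (c c' : Ch n X) : Prop := ∃ b, bd n b = c - c'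

theorem Hg.refl (c : Ch n X) : Hg c c := ⟨0, by rw [map_zero, sub_self]⟩

theorem Hg.of_eq {c c' : Ch n X} (h : c = c') : Hg c c' := h ▸ Hg.refl c

theorem Hg.symm {c c' : Ch n X} (h : Hg c c') : Hg c' c := by
  obtain ⟨b, hb⟩ := h
  exact ⟨-b, by rw [map_neg, hb, neg_sub]⟩

theorem Hg.trans {c c' c'' : Ch n X} (h : Hg c c') (h' : Hg c' c'') : Hg c c'' := by
  obtain ⟨b, hb⟩ := h
  obtain ⟨b', hb'⟩ := h'
  exact ⟨b + b', by rw [map_add, hb, hb', sub_add_sub_cancel]⟩

theorem Hg.add {c c' d d' : Ch n X} (h : Hg c c') (h' : Hg d d') : Hg (c + d) (c' + d') := by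
  obtain ⟨b, hb⟩ := h
  obtain ⟨b', hb'⟩ := h'
  exact ⟨b + b', by rw [map_add, hb, hb', add_sub_add_comm]⟩

theorem Hg.sub {c c' d d' : Ch n X} (h : Hg c c') (h' : Hg d d') : Hg (c - d) (c' - d') := by
  obtain ⟨b, hb⟩ := h
  obtain ⟨b', hb'⟩ := h'
  exact ⟨b - b', by rw [map_sub, hb, hb']; abel⟩

theorem hg_bd (b : Ch (n + 1) X) : Hg (bd n b) 0 := ⟨b, by rw [sub_zero]⟩

theorem Hg.exists_bd {c : Ch n X} (h : Hg c 0) : ∃ b, bd n b = c := by
  obtain ⟨b, hb⟩ := h
  exact ⟨b, by rw [hb, sub_zero]⟩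

theorem Hg.push {c c' : Ch n X} (h : Hg c c') (f : C(X, Y)) :
    Hg (push f n c) (push f n c') := by
  obtain ⟨b, hb⟩ := h
  exact ⟨Vale.Agent.P246.T.push f (n + 1) b, by rw [push_bd, hb, map_sub]⟩

theorem Hg.push_zero {c : Ch n X} (h : Hg c 0) (f : C(X, Y)) : Hg (Vale.Agent.P246.T.push f n c) 0 := by
  have := h.push f
  rwa [map_zero] at this

/-! ### reduced cycles -/

theorem redCyc_push (f : C(X, Y)) {c : Ch n X} (h : RedCyc n c) : RedCyc n (push f n c) := by
  cases n with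
  | zero =>
    change wt 0 _ = 0
    rw [wt_push]
    exact h
  | succ n =>
    change bd n _ = 0
    rw [push_bd, show bd n c = 0 from h, map_zero]

theorem redCyc_of_push {f : C(X, Y)} (hf : Function.Injective f) {c : Ch n X}
    (h : RedCyc n (push f n c)) : RedCyc n c := by
  cases n with
  | zero =>
    change wt 0 c = 0
    rw [← wt_push f]
    exact h
  | succ n =>
    change bd n c = 0
    apply PR.push_injective hf n
    rw [← push_bd, map_zero]
    exact h

theorem redCyc_add {c c' : Ch n X} (h : RedCyc n c) (h' : RedCyc n c') : RedCyc n (c + c') := by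
  have := h.sub ((h'.smul (-1)))
  rwa [neg_one_smul, sub_neg_eq_add] at this

theorem Hg.redCyc {c c' : Ch n X} (h : Hg c c') (h' : RedCyc n c') : RedCyc n c := by
  obtain ⟨b, hb⟩ := h
  have := redCyc_add (redCyc_bd n b) h'
  rwa [hb, sub_add_cancel] at this

/-- homotopic maps agree on homology -/
theorem hg_of_homotopic {f g : C(X, Y)} (h : f.Homotopic g) {c : Ch n X} (hc : RedCyc n c) :
    Hg (push f n c) (push g n c) := by
  obtain ⟨H⟩ := h
  have e0 : PR.at' H.toContinuousMap 0 = f := ContinuousMap.ext fun x => H.apply_zero x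
  have e1 : PR.at' H.toContinuousMap 1 = g := ContinuousMap.ext fun x => H.apply_one x
  apply Hg.symm
  cases n with
  | zero => exact ⟨PR.hD H.toContinuousMap 0 c, by rw [PR.bd_hD_zero, e0, e1]⟩
  | succ n =>
    refine ⟨PR.hD H.toContinuousMap (n + 1) c, ?_⟩
    rw [PR.bd_hD, e0, e1, show bd n c = 0 from hc, map_zero, sub_zero]

/-- the reduced homology vanishes in degree `n` -/
def RZ (X : Type) [TopologicalSpace X] (n : ℕ) : Prop :=
  ∀ c : Ch n X, RedCyc n c → ∃ b, bd n b = c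

theorem RZ.hg (h : RZ X n) {c : Ch n X} (hc : RedCyc n c) : Hg c 0 := by
  obtain ⟨b, hb⟩ := h c hc
  exact ⟨b, by rw [hb, sub_zero]⟩

theorem rz_of_contr (x₀ : X) (H : C(I × X, X)) (h0 : ∀ x, H (0, x) = x) (h1 : ∀ x, H (1, x) = x₀)
    (n : ℕ) : RZ X n := by
  intro c hc
  obtain ⟨b, -, hb⟩ := acy_of_contr PR.op x₀ H h0 h1 n c (mem_univ_con n c) hc
  exact ⟨b, hb⟩

theorem rz_unit (n : ℕ) : RZ Unit n :=
  rz_of_contr () ⟨fun q => q.2, by fun_prop⟩ (fun _ => rfl) (fun _ => rfl) n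

theorem rz_of_contractible [ContractibleSpace X] (n : ℕ) : RZ X n := by
  obtain ⟨x₀, ⟨H⟩⟩ := (contractible_iff_id_nullhomotopic X).1 inferInstance
  exact rz_of_contr x₀ H.toContinuousMap (fun x => H.apply_zero x) (fun x => H.apply_one x) n

theorem push_const_hg (x : Y) {c : Ch n X} (hc : RedCyc n c) :
    Hg (push (ContinuousMap.const X x) n c) 0 := by
  have h := ((rz_unit n).hg (redCyc_push (ContinuousMap.const X ()) hc)).push_zero
    (ContinuousMap.const Unit x)
  rw [← push_comp] at h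
  exact h

/-- a homotopy equivalence, one half: a retract up to homotopy -/
theorem RZ.of_retract {f : C(X, Y)} {g : C(Y, X)} (h : (g.comp f).Homotopic (ContinuousMap.id X))
    (hY : RZ Y n) : RZ X n := by
  intro c hc
  have h1 := ((hY.hg (redCyc_push f hc)).push_zero g)
  rw [← push_comp] at h1
  have h2 := hg_of_homotopic h hc
  rw [push_id] at h2
  exact (h2.symm.trans h1).exists_bd

/-! ### subdivision -/

theorem hg_sd (S : SdOp) {c : Ch n X} (hc : RedCyc n c) : Hg c (S.s X n c) := by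
  cases n with
  | zero => exact ⟨S.t X 0 c, S.t_zero X c⟩
  | succ n =>
    refine ⟨S.t X (n + 1) c, ?_⟩
    rw [S.t_succ, show bd n c = 0 from hc, map_zero, sub_zero]

theorem redCyc_sd (S : SdOp) {c : Ch n X} (hc : RedCyc n c) : RedCyc n (S.s X n c) :=
  (hg_sd S hc).symm.redCyc hc

theorem con_inter {A B : Set X} {c : Ch n X} (h : c ∈ Con A n) (h' : c ∈ Con B n) :
    c ∈ Con (A ∩ B) n := by
  rw [Vale.Agent.P246.T.Con, Finsupp.mem_supported] at h h' ⊢
  exact fun σ hσ x => ⟨h hσ x, h' hσ x⟩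

/-- the inclusion of a subset into a bigger one -/
def sub {A B : Set X} (h : A ⊆ B) : C(A, B) := ⟨Set.inclusion h, continuous_inclusion h⟩

theorem push_inc_sub {A B : Set X} (h : A ⊆ B) (c : Ch n A) :
    push (PR.inc B) n (push (sub h) n c) = push (PR.inc A) n c := by
  rw [← push_comp]
  rfl

/-! ### the Mayer-Vietoris sequence -/

section MV

variable {U₁ U₂ A : Set X}

theorem mv_surj (h₁ : IsOpen U₁) (h₂ : IsOpen U₂) (hc : U₁ ∪ U₂ = univ) (hA : A ⊆ U₁)
    (z : Ch n A) (e : Ch (n + 1) X) (he : bd n e = push (PR.inc A) n z) :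
    ∃ (S : SdOp) (c : Ch n ↥(U₁ ∩ U₂)) (e₁ : Ch (n + 1) U₁) (e₂ : Ch (n + 1) U₂),
      push (sub (inter_subset_right : U₁ ∩ U₂ ⊆ U₂)) n c = bd n e₂ ∧
      push (sub (inter_subset_left : U₁ ∩ U₂ ⊆ U₁)) n c =
        push (sub hA) n (S.s A n z) - bd n e₁ := by
  obtain ⟨S, hS⟩ := SD.main X univ U₁ U₂ ⟨U₁, h₁, inter_univ _⟩ ⟨U₂, h₂, inter_univ _⟩
    hc.symm.subset (n + 1) e (mem_univ_con _ _)
  obtain ⟨y, hy, w, hw, hyw⟩ := Submodule.mem_sup.1 hS
  obtain ⟨e₁, rfl⟩ := PR.exists_push_inc hy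
  obtain ⟨e₂, rfl⟩ := PR.exists_push_inc hw
  have h3 : bd n (push (PR.inc U₁) (n + 1) e₁) + bd n (push (PR.inc U₂) (n + 1) e₂) =
      push (PR.inc A) n (S.s A n z) := by
    rw [← map_add, hyw, S.s_bd, he, S.s_nat]
  rw [push_bd, push_bd] at h3
  have h4 : push (PR.inc U₂) n (bd n e₂) ∈ Con (U₁ ∩ U₂) n := by
    refine con_inter ?_ (PR.push_inc_mem _)
    have : push (PR.inc U₂) n (bd n e₂) =
        push (PR.inc A) n (S.s A n z) - push (PR.inc U₁) n (bd n e₁) := by
      rw [← h3]; abel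
    rw [this]
    exact sub_mem (con_mono hA (PR.push_inc_mem _)) (PR.push_inc_mem _)
  obtain ⟨c, hc'⟩ := PR.exists_push_inc h4
  refine ⟨S, c, e₁, e₂, ?_, ?_⟩
  · apply PR.push_inc_injective n
    rw [push_inc_sub, hc']
  · apply PR.push_inc_injective n
    rw [push_inc_sub, hc', map_sub, push_inc_sub, ← h3]
    abel

theorem mv_inj (h₁ : IsOpen U₁) (h₂ : IsOpen U₂) (hc : U₁ ∪ U₂ = univ) (hX : RZ X (n + 1))
    (c : Ch n ↥(U₁ ∩ U₂)) (hcc : RedCyc n c) (e₁ : Ch (n + 1) U₁) (e₂ : Ch (n + 1) U₂)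
    (he₁ : bd n e₁ = push (sub (inter_subset_left : U₁ ∩ U₂ ⊆ U₁)) n c)
    (he₂ : bd n e₂ = push (sub (inter_subset_right : U₁ ∩ U₂ ⊆ U₂)) n c) : Hg c 0 := by
  obtain ⟨w, hw⟩ := hX (push (PR.inc U₂) (n + 1) e₂ - push (PR.inc U₁) (n + 1) e₁) (by
    change bd n _ = 0
    rw [map_sub, push_bd, push_bd, he₁, he₂, push_inc_sub, push_inc_sub, sub_self])
  obtain ⟨S, hS⟩ := SD.main X univ U₁ U₂ ⟨U₁, h₁, inter_univ _⟩ ⟨U₂, h₂, inter_univ _⟩
    hc.symm.subset (n + 2) w (mem_univ_con _ _)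
  obtain ⟨w₁, hw₁, w₂, hw₂, hww⟩ := Submodule.mem_sup.1 hS
  have h3 : bd (n + 1) w₁ + bd (n + 1) w₂ = push (PR.inc U₂) (n + 1) (S.s _ (n + 1) e₂) -
      push (PR.inc U₁) (n + 1) (S.s _ (n + 1) e₁) := by
    rw [← map_add, hww, S.s_bd, hw, map_sub, S.s_nat, S.s_nat]
  have h4 : push (PR.inc U₂) (n + 1) (S.s _ (n + 1) e₂) - bd (n + 1) w₂ ∈ Con (U₁ ∩ U₂) (n + 1) := by
    refine con_inter ?_ (sub_mem (PR.push_inc_mem _) (bd_mem hw₂))
    have : push (PR.inc U₂) (n + 1) (S.s _ (n + 1) e₂) - bd (n + 1) w₂ =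
        bd (n + 1) w₁ + push (PR.inc U₁) (n + 1) (S.s _ (n + 1) e₁) := by
      have h5 := sub_eq_iff_eq_add.1 h3.symm
      rw [h5]; abel
    rw [this]
    exact add_mem (bd_mem hw₁) (PR.push_inc_mem _)
  obtain ⟨u, hu⟩ := PR.exists_push_inc h4
  refine (hg_sd S hcc).trans ⟨u, ?_⟩
  rw [sub_zero]
  apply PR.push_inc_injective n
  rw [← push_bd, hu, map_sub, PR.bd_bd, sub_zero, push_bd, S.s_bd, he₂, ← S.s_nat, push_inc_sub]

end MV

/-! ### fibrations over a union of two contractible open sets -/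

/-- the decomposition of the cycles of a product -/
def KunP (A B : Type) [TopologicalSpace A] [TopologicalSpace B] (a₀ : A) (b₀ : B) (n : ℕ) : Prop :=
  ∀ z : Ch n (A × B), RedCyc n z →
    Hg z (push (⟨fun q => (q.1, b₀), by fun_prop⟩ : C(A × B, A × B)) n z +
      push (⟨fun q => (a₀, q.2), by fun_prop⟩ : C(A × B, A × B)) n z -
      push (ContinuousMap.const (A × B) (a₀, b₀)) n z)

section Fib

variable {U₁ U₂ A : Set X} {B : Type} [TopologicalSpace B]

/-- the section `b ↦ s (a₀, b)` -/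
def sec (s : C(A × B, ↥(U₁ ∩ U₂))) (a₀ : A) : C(B, ↥(U₁ ∩ U₂)) :=
  ⟨fun b => s (a₀, b), by fun_prop⟩

/-- the map `B → A` -/
def clu (s : C(A × B, ↥(U₁ ∩ U₂))) (T₁ : C(U₁, A)) (a₀ : A) : C(B, A) :=
  (T₁.comp (sub (inter_subset_left : U₁ ∩ U₂ ⊆ U₁))).comp (sec s a₀)

theorem onto_of (h₁ : IsOpen U₁) (h₂ : IsOpen U₂) (hc : U₁ ∪ U₂ = univ) (hA : A ⊆ U₁)
    (hX : RZ X n) (T₁ : C(U₁, A)) (T₂ : C(U₂, A))
    (hT₁ : (T₁.comp (sub hA)).Homotopic (ContinuousMap.id A)) (p : C(↥(U₁ ∩ U₂), B))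
    (s : C(A × B, ↥(U₁ ∩ U₂)))
    (hs : (s.comp ((T₂.comp (sub (inter_subset_right : U₁ ∩ U₂ ⊆ U₂))).prodMk p)).Homotopic
      (ContinuousMap.id _)) (a₀ : A) (b₀ : B) (hK : KunP A B a₀ b₀ n) (z : Ch n A)
    (hz : RedCyc n z) : ∃ y : Ch n B, RedCyc n y ∧ Hg z (push (clu s T₁ a₀) n y) := by
  obtain ⟨e, he⟩ := hX (push (PR.inc A) n z) (redCyc_push _ hz)
  obtain ⟨S, c, e₁, e₂, h3, h4⟩ := mv_surj h₁ h₂ hc hA z e he
  set i₁ := sub (inter_subset_left : U₁ ∩ U₂ ⊆ U₁) with hi₁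
  set i₂ := sub (inter_subset_right : U₁ ∩ U₂ ⊆ U₂) with hi₂
  have hcc : RedCyc n c := by
    apply redCyc_of_push (f := i₂)
      (Set.inclusion_injective (inter_subset_right : U₁ ∩ U₂ ⊆ U₂))
    rw [h3]
    exact redCyc_bd n e₂
  -- the image under `T₂` is zero
  have hT2 : Hg (push (T₂.comp i₂) n c) 0 := by
    rw [push_comp, h3]
    exact (hg_bd e₂).push_zero T₂
  -- the image under `T₁` is `z`
  have hT1 : Hg z (push (T₁.comp i₁) n c) := by
    rw [push_comp, h4, map_sub, ← push_comp]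
    have h5 : Hg (push T₁ n (bd n e₁)) 0 := (hg_bd e₁).push_zero T₁
    have h6 := hg_of_homotopic hT₁ (redCyc_sd S hz)
    rw [push_id] at h6
    have h7 := h6.sub h5
    rw [sub_zero] at h7
    exact (hg_sd S hz).trans h7.symm
  set D : C(↥(U₁ ∩ U₂), A × B) := (T₂.comp i₂).prodMk p with hD
  have h8 := hg_of_homotopic hs hcc
  rw [push_id, push_comp] at h8
  have h9 := hK (push D n c) (redCyc_push D hcc)
  rw [← push_comp, ← push_comp, ← push_comp] at h9
  have h10 : Hg (push ((⟨fun q => (q.1, b₀), by fun_prop⟩ : C(A × B, A × B)).comp D) n c) 0 := by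
    have := hT2.push_zero (⟨fun a => (a, b₀), by fun_prop⟩ : C(A, A × B))
    rw [← push_comp] at this
    exact this
  have h11 : Hg (push ((ContinuousMap.const (A × B) (a₀, b₀)).comp D) n c) 0 := push_const_hg _ hcc
  have h12 := h9.trans ((h10.add (Hg.refl _)).sub h11)
  rw [zero_add, sub_zero] at h12
  have h13 := h8.symm.trans (h12.push s)
  have h14 := h13.push (T₁.comp i₁)
  refine ⟨push p n c, redCyc_push p hcc, hT1.trans (h14.trans (Hg.of_eq ?_))⟩
  rw [← push_comp, ← push_comp, ← push_comp]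
  rfl

theorem inj_of (h₁ : IsOpen U₁) (h₂ : IsOpen U₂) (hc : U₁ ∪ U₂ = univ) (hA₁ : A ⊆ U₁)
    (hA₂ : A ⊆ U₂) (hX : RZ X (n + 1)) (T₁ : C(U₁, A)) (T₂ : C(U₂, A))
    (hT₁ : ((sub hA₁).comp T₁).Homotopic (ContinuousMap.id U₁))
    (hT₂ : ((sub hA₂).comp T₂).Homotopic (ContinuousMap.id U₂)) (p : C(↥(U₁ ∩ U₂), B))
    (s : C(A × B, ↥(U₁ ∩ U₂))) (a₀ : A) (hp : ∀ b, p (s (a₀, b)) = b)
    (hs : ((T₂.comp (sub (inter_subset_right : U₁ ∩ U₂ ⊆ U₂))).comp (sec s a₀)).Homotopic
      (ContinuousMap.const B a₀)) (y : Ch n B) (hy : RedCyc n y)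
    (hly : Hg (push (clu s T₁ a₀) n y) 0) : Hg y 0 := by
  set i₁ := sub (inter_subset_left : U₁ ∩ U₂ ⊆ U₁) with hi₁
  set i₂ := sub (inter_subset_right : U₁ ∩ U₂ ⊆ U₂) with hi₂
  have hcc : RedCyc n (push (sec s a₀) n y) := redCyc_push _ hy
  have h3 : Hg (push i₁ n (push (sec s a₀) n y)) 0 := by
    have h4 := hg_of_homotopic hT₁ (redCyc_push i₁ hcc)
    rw [push_id] at h4
    refine h4.symm.trans ?_
    rw [push_comp]
    apply Hg.push_zero
    rw [clu, push_comp, push_comp] at hly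
    exact hly
  have h5 : Hg (push i₂ n (push (sec s a₀) n y)) 0 := by
    have h4 := hg_of_homotopic hT₂ (redCyc_push i₂ hcc)
    rw [push_id] at h4
    refine h4.symm.trans ?_
    rw [push_comp]
    apply Hg.push_zero
    have h6 := (hg_of_homotopic hs hy).trans (push_const_hg _ hy)
    rw [push_comp, push_comp] at h6
    exact h6
  obtain ⟨e₁, he₁⟩ := h3.exists_bd
  obtain ⟨e₂, he₂⟩ := h5.exists_bd
  have h7 := (mv_inj h₁ h₂ hc hX _ hcc e₁ e₂ he₁ he₂).push_zero p
  rw [← push_comp, show p.comp (sec s a₀) = ContinuousMap.id B from ContinuousMap.ext hp,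
    push_id] at h7
  exact h7

end Fib

/-! ### relative homology -/

/-- the map `f` is onto in degree `n` and injective in degree `n - 1`, on reduced homology -/
structure RelZ (f : C(X, Y)) (n : ℕ) : Prop where
  onto : ∀ z : Ch n Y, RedCyc n z → ∃ y : Ch n X, RedCyc n y ∧ Hg z (push f n y)
  inj : ∀ m, m + 1 = n → ∀ y : Ch m X, RedCyc m y → Hg (push f m y) 0 → Hg y 0

theorem RelZ.congr {f g : C(X, Y)} (h : f.Homotopic g) (hf : RelZ f n) : RelZ g n where
  onto z hz := by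
    obtain ⟨y, hy, hh⟩ := hf.onto z hz
    exact ⟨y, hy, hh.trans (hg_of_homotopic h hy)⟩
  inj m hm y hy hh := hf.inj m hm y hy ((hg_of_homotopic h hy).trans hh)

/-- composition with a homotopy equivalence -/
theorem RelZ.comp {f : C(X, Y)} (hf : RelZ f n) (i : C(Z, X)) (r : C(X, Z))
    (h1 : (i.comp r).Homotopic (ContinuousMap.id X)) (h2 : (r.comp i).Homotopic (ContinuousMap.id Z)) :
    RelZ (f.comp i) n where
  onto z hz := by
    obtain ⟨y, hy, hh⟩ := hf.onto z hz
    refine ⟨push r n y, redCyc_push r hy, hh.trans ?_⟩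
    have h3 := (hg_of_homotopic h1 hy).push f
    rw [push_id, push_comp] at h3
    rw [push_comp]
    exact h3.symm
  inj m hm y hy hh := by
    rw [push_comp] at hh
    have h3 := (hf.inj m hm _ (redCyc_push i hy) hh).push_zero r
    rw [← push_comp] at h3
    have h4 := hg_of_homotopic h2 hy
    rw [push_id] at h4
    exact h4.symm.trans h3

/-- chains in the image of an embedding -/
theorem exists_push_range {f : C(X, Y)} (hf : IsEmbedding f) {c : Ch n Y}
    (hc : c ∈ Con (range f) n) : ∃ c' : Ch n X, push f n c' = c := by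
  obtain ⟨c', rfl⟩ := PR.exists_push_inc hc
  refine ⟨push (⟨hf.toHomeomorph.symm, hf.toHomeomorph.symm.continuous⟩ : C(range f, X)) n c', ?_⟩
  rw [← push_comp]
  congr 1
  congr 1
  apply ContinuousMap.ext
  intro y
  change f (hf.toHomeomorph.symm y) = (y : Y)
  exact congrArg Subtype.val (hf.toHomeomorph.apply_symm_apply y)

theorem push_mem_range (f : C(X, Y)) (c : Ch n X) : push f n c ∈ Con (range f) n :=
  push_mem (A := univ) (fun x _ => mem_range_self x) (mem_univ_con _ _)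

/-- **from absolute to relative homology** -/
theorem hzero_of_rel {f : C(X, Y)} (hf : IsEmbedding f) (x₀ : X) (h : RelZ f n) :
    HZero univ (range f) n := by
  intro c _ hc
  cases n with
  | zero =>
    obtain ⟨y, hy, b, hb⟩ := h.onto (c - wt 0 c • ksx 0 (f x₀)) (by
      change wt 0 _ = 0
      rw [map_sub, map_smul, wt_ksx, smul_eq_mul, mul_one, sub_self])
    refine ⟨b, mem_univ_con _ _, ?_⟩
    rw [hb]
    have : c - (c - wt 0 c • ksx 0 (f x₀) - push f 0 y) = push f 0 y + wt 0 c • ksx 0 (f x₀) := by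
      abel
    rw [this]
    exact add_mem (push_mem_range f y) (Submodule.smul_mem _ _
      (SD.single_mem (fun _ => mem_range_self x₀) 1))
  | succ m =>
    have hc' : bd m c ∈ Con (range f) m := hc
    obtain ⟨a, ha⟩ := exists_push_range hf hc'
    have hac : RedCyc m a := redCyc_of_push hf.injective (by rw [ha]; exact redCyc_bd m c)
    obtain ⟨a', ha'⟩ := (h.inj m rfl a hac (by rw [ha]; exact hg_bd c)).exists_bd
    obtain ⟨y, -, b, hb⟩ := h.onto (c - push f (m + 1) a') (by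
      change bd m _ = 0
      rw [map_sub, push_bd, ha', ha, sub_self])
    refine ⟨b, mem_univ_con _ _, ?_⟩
    rw [hb]
    have : c - (c - push f (m + 1) a' - push f (m + 1) y) =
        push f (m + 1) a' + push f (m + 1) y := by
      abel
    rw [this]
    exact add_mem (push_mem_range f a') (push_mem_range f y)

end Vale.Agent.P263.AD.Freu
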